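import Mathlib

/-!
P045: covers of intersecting hypergraphs of small maximum degree.
-/

namespace Vale.Agent.P045

variable {V : Type*} [DecidableEq V]

/-- The degree of a vertex: the number of edges containing it. -/
def deg (H : Finset (Finset V)) (v : V) : ℕ := (H.filter (fun e => v ∈ e)).card

lemma sum_deg (H : Finset (Finset V)) (e : Finset V) :
    ∑ v ∈ e, deg H v = ∑ f ∈ H, (e ∩ f).card := by
  have h1 : ∀ v ∈ e, deg H v = ∑ f ∈ H, if v ∈ f then 1 else 0 := by
    intro v _
    rw [deg, Finset.card_filter]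
  rw [Finset.sum_congr rfl h1, Finset.sum_comm]
  refine Finset.sum_congr rfl fun f _ => ?_
  rw [← Finset.card_filter, Finset.filter_mem_eq_inter]

lemma lower (H : Finset (Finset V)) (hint : ∀ e ∈ H, ∀ f ∈ H, (e ∩ f).Nonempty)
    (e : Finset V) (he : e ∈ H) : e.card + (H.card - 1) ≤ ∑ v ∈ e, deg H v := by
  rw [sum_deg, ← Finset.add_sum_erase H _ he, Finset.inter_self]
  have h1 : ∑ f ∈ H.erase e, 1 ≤ ∑ f ∈ H.erase e, (e ∩ f).card :=
    Finset.sum_le_sum fun f hf => Finset.card_pos.2 (hint e he f (Finset.mem_of_mem_erase hf))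
  rw [Finset.sum_const, smul_eq_mul, mul_one, Finset.card_erase_of_mem he] at h1
  omega

lemma step (r : ℕ) (H : Finset (Finset V)) (hr : ∀ e ∈ H, e.card = r)
    (hint : ∀ e ∈ H, ∀ f ∈ H, (e ∩ f).Nonempty) (hm : r + 2 ≤ H.card) : ∃ v, 3 ≤ deg H v := by
  by_contra h
  push Not at h
  obtain ⟨e, he⟩ : H.Nonempty := Finset.card_pos.1 (by omega)
  have h1 := lower H hint e he
  have h2 : ∑ v ∈ e, deg H v ≤ ∑ v ∈ e, 2 := Finset.sum_le_sum fun v _ => by
    have := h v
    omega
  rw [Finset.sum_const, smul_eq_mul, hr e he] at h2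
  rw [hr e he] at h1
  omega

lemma card_not (H : Finset (Finset V)) (v : V) :
    (H.filter (fun e => v ∉ e)).card + deg H v = H.card := by
  rw [deg, add_comm]
  exact Finset.card_filter_add_card_filter_not (s := H) (fun e => v ∈ e)

/-- `C` is a cover of `H`. -/
def IsCover (H : Finset (Finset V)) (C : Finset V) : Prop := ∀ e ∈ H, ∃ v ∈ C, v ∈ e

lemma cover_insert (H : Finset (Finset V)) (v : V) (C : Finset V)
    (hC : IsCover (H.filter (fun e => v ∉ e)) C) : IsCover H (insert v C) := by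
  intro e he
  by_cases hv : v ∈ e
  · exact ⟨v, Finset.mem_insert_self _ _, hv⟩
  · obtain ⟨w, hw, hwe⟩ := hC e (Finset.mem_filter.2 ⟨he, hv⟩)
    exact ⟨w, Finset.mem_insert_of_mem hw, hwe⟩

lemma pairs (n : ℕ) : ∀ H : Finset (Finset V), (∀ e ∈ H, ∀ f ∈ H, (e ∩ f).Nonempty) →
    H.card ≤ 2 * n → ∃ C : Finset V, C.card ≤ n ∧ IsCover H C := by
  induction n with
  | zero =>
    intro H _ hc
    have h0 : H = ∅ := Finset.card_eq_zero.1 (by omega)
    subst h0
    exact ⟨∅, by simp, fun e he => absurd he (Finset.notMem_empty e)⟩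
  | succ n ih =>
    intro H hint hc
    rcases H.eq_empty_or_nonempty with h0 | ⟨e, he⟩
    · subst h0
      exact ⟨∅, by simp, fun e he => absurd he (Finset.notMem_empty e)⟩
    · have key : ∃ v : V, (H.filter (fun e => v ∉ e)).card ≤ 2 * n := by
        by_cases h1 : ∃ f ∈ H, f ≠ e
        · obtain ⟨f, hf, hfe⟩ := h1
          obtain ⟨v, hv⟩ := hint e he f hf
          rw [Finset.mem_inter] at hv
          refine ⟨v, ?_⟩
          have h2 := card_not H v
          have h3 : 2 ≤ deg H v := by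
            rw [deg]
            have h4 : ({e, f} : Finset (Finset V)) ⊆ H.filter (fun e => v ∈ e) := by
              intro x hx
              rw [Finset.mem_insert, Finset.mem_singleton] at hx
              rcases hx with rfl | rfl
              · exact Finset.mem_filter.2 ⟨he, hv.1⟩
              · exact Finset.mem_filter.2 ⟨hf, hv.2⟩
            have h5 := Finset.card_le_card h4
            rwa [Finset.card_pair (Ne.symm hfe)] at h5
          omega
        · push Not at h1
          obtain ⟨v, hv⟩ := hint e he e he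
          rw [Finset.inter_self] at hv
          refine ⟨v, ?_⟩
          have h2 : H.filter (fun e => v ∉ e) = ∅ := by
            rw [Finset.filter_eq_empty_iff]
            intro x hx
            rw [h1 x hx]
            exact not_not.2 hv
          rw [h2, Finset.card_empty]
          omega
      obtain ⟨v, hv⟩ := key
      obtain ⟨C, hC, hcov⟩ := ih (H.filter (fun e => v ∉ e))
        (fun a ha b hb => hint a (Finset.mem_filter.1 ha).1 b (Finset.mem_filter.1 hb).1) hv
      exact ⟨insert v C, (Finset.card_insert_le _ _).trans (by omega), cover_insert H v C hcov⟩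

lemma deg_filter_le (H : Finset (Finset V)) (v w : V) :
    deg (H.filter (fun e => v ∉ e)) w ≤ deg H w := by
  rw [deg, deg]
  exact Finset.card_le_card (Finset.filter_subset_filter _ (Finset.filter_subset _ _))

lemma greedy (r n : ℕ) (k : ℕ) : ∀ H : Finset (Finset V), (∀ e ∈ H, e.card = r) →
    (∀ e ∈ H, ∀ f ∈ H, (e ∩ f).Nonempty) → (∀ v, deg H v ≤ 3) →
    H.card ≤ 3 * k + 2 * n → (∀ j, j < k → r + 2 + 3 * j ≤ H.card) →
    ∃ C : Finset V, C.card ≤ k + n ∧ IsCover H C := by
  induction k with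
  | zero =>
    intro H _ hint _ hc _
    obtain ⟨C, hC, hcov⟩ := pairs n H hint (by omega)
    exact ⟨C, by omega, hcov⟩
  | succ k ih =>
    intro H hr hint hd hc hj
    have h0 := hj 0 (Nat.succ_pos k)
    obtain ⟨v, hv⟩ := step r H hr hint (by omega)
    have hv3 : deg H v = 3 := le_antisymm (hd v) hv
    have hcn := card_not H v
    obtain ⟨C, hC, hcov⟩ := ih (H.filter (fun e => v ∉ e))
      (fun a ha => hr a (Finset.mem_filter.1 ha).1)
      (fun a ha b hb => hint a (Finset.mem_filter.1 ha).1 b (Finset.mem_filter.1 hb).1)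
      (fun w => (deg_filter_le H v w).trans (hd w)) (by omega) (fun j hjk => by
        have := hj (j + 1) (by omega)
        omega)
    exact ⟨insert v C, (Finset.card_insert_le _ _).trans (by omega), cover_insert H v C hcov⟩

lemma card_le (r : ℕ) (H : Finset (Finset V)) (hr : ∀ e ∈ H, e.card = r)
    (hint : ∀ e ∈ H, ∀ f ∈ H, (e ∩ f).Nonempty) (hd : ∀ v, deg H v ≤ 3) :
    H.card ≤ 2 * r + 1 := by
  rcases H.eq_empty_or_nonempty with h0 | ⟨e, he⟩
  · rw [h0, Finset.card_empty]
    omega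
  · have h1 := lower H hint e he
    have h2 : ∑ v ∈ e, deg H v ≤ ∑ v ∈ e, 3 := Finset.sum_le_sum fun v _ => hd v
    rw [Finset.sum_const, smul_eq_mul, hr e he] at h2
    rw [hr e he] at h1
    omega

/-- Extremal case: if there are `2 r + 1` edges then all vertices of edges have degree three. -/
lemma deg_eq (r : ℕ) (H : Finset (Finset V)) (hr : ∀ e ∈ H, e.card = r)
    (hint : ∀ e ∈ H, ∀ f ∈ H, (e ∩ f).Nonempty) (hd : ∀ v, deg H v ≤ 3)
    (hm : H.card = 2 * r + 1) (e : Finset V) (he : e ∈ H) (v : V) (hv : v ∈ e) :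
    deg H v = 3 := by
  have h1 := lower H hint e he
  by_contra hne
  have hlt : deg H v < 3 := lt_of_le_of_ne (hd v) hne
  have h2 : ∑ v ∈ e, deg H v < ∑ v ∈ e, 3 :=
    Finset.sum_lt_sum (fun v _ => hd v) ⟨v, hv, hlt⟩
  rw [Finset.sum_const, smul_eq_mul, hr e he] at h2
  rw [hr e he] at h1
  omega

theorem main7 (r : ℕ) (hr7 : 7 ≤ r) (H : Finset (Finset V)) (hr : ∀ e ∈ H, e.card = r)
    (hint : ∀ e ∈ H, ∀ f ∈ H, (e ∩ f).Nonempty) (hd : ∀ v, deg H v ≤ 3) :
    ∃ C : Finset V, C.card ≤ r - 1 ∧ IsCover H C := by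
  have hm := card_le r H hr hint hd
  by_cases h1 : H.card ≤ 2 * r - 2
  · obtain ⟨C, hC, hcov⟩ := pairs (r - 1) H hint (by omega)
    exact ⟨C, hC, hcov⟩
  by_cases h2 : H.card = 2 * r - 1
  · obtain ⟨C, hC, hcov⟩ := greedy r (r - 2) 1 H hr hint hd (by omega) (fun j hj => by omega)
    exact ⟨C, by omega, hcov⟩
  by_cases h3 : H.card = 2 * r
  · obtain ⟨C, hC, hcov⟩ := greedy r (r - 3) 2 H hr hint hd (by omega) (fun j hj => by omega)
    exact ⟨C, by omega, hcov⟩
  · obtain ⟨C, hC, hcov⟩ := greedy r (r - 4) 3 H hr hint hd (by omega) (fun j hj => by omega)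
    exact ⟨C, by omega, hcov⟩

theorem main6 (H : Finset (Finset V)) (part : V → Fin 6)
    (hpart : ∀ e ∈ H, ∀ i : Fin 6, (e.filter (fun v => part v = i)).card = 1)
    (hint : ∀ e ∈ H, ∀ f ∈ H, (e ∩ f).Nonempty) (hd : ∀ v, deg H v ≤ 3) :
    ∃ C : Finset V, C.card ≤ 5 ∧ IsCover H C := by
  have hr : ∀ e ∈ H, e.card = 6 := by
    intro e he
    have h1 := Finset.card_eq_sum_card_fiberwise (f := part) (s := e) (t := Finset.univ)
      (fun x _ => Finset.mem_coe.2 (Finset.mem_univ _))
    rw [h1, Finset.sum_congr rfl (fun i _ => hpart e he i)]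
    simp
  have hm := card_le 6 H hr hint hd
  have hne13 : H.card ≠ 13 := by
    intro h13
    have hdeg := deg_eq 6 H hr hint hd (by omega)
    set U : Finset V := (H.biUnion id).filter (fun v => part v = 0) with hU
    have h1 : ∑ v ∈ U, deg H v = ∑ v ∈ U, 3 := by
      refine Finset.sum_congr rfl fun v hv => ?_
      rw [hU, Finset.mem_filter, Finset.mem_biUnion] at hv
      obtain ⟨⟨e, he, hve⟩, -⟩ := hv
      exact hdeg e he v hve
    have h2 : ∑ v ∈ U, deg H v = ∑ f ∈ H, 1 := by
      rw [sum_deg]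
      refine Finset.sum_congr rfl fun f hf => ?_
      rw [← hpart f hf 0]
      congr 1
      ext v
      rw [hU, Finset.mem_inter, Finset.mem_filter, Finset.mem_filter, Finset.mem_biUnion]
      constructor
      · rintro ⟨⟨_, h⟩, hvf⟩
        exact ⟨hvf, h⟩
      · rintro ⟨hvf, h⟩
        exact ⟨⟨⟨f, hf, hvf⟩, h⟩, hvf⟩
    rw [h1, Finset.sum_const, Finset.sum_const, smul_eq_mul, smul_eq_mul, h13] at h2
    omega
  by_cases h1 : H.card ≤ 10
  · obtain ⟨C, hC, hcov⟩ := pairs 5 H hint (by omega)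
    exact ⟨C, hC, hcov⟩
  by_cases h2 : H.card = 11
  · obtain ⟨C, hC, hcov⟩ := greedy 6 4 1 H hr hint hd (by omega) (fun j hj => by omega)
    exact ⟨C, by omega, hcov⟩
  · obtain ⟨C, hC, hcov⟩ := greedy 6 3 2 H hr hint hd (by omega) (fun j hj => by omega)
    exact ⟨C, by omega, hcov⟩

end Vale.Agent.P045
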